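import Vale.Agent.P273.H857.Stm
import Vale.Agent.P273.H857.HolInt

/-!
Row GP-HOLR: the half periods are holomorphic functions of the roots.
-/

open Complex Set Filter Topology MeasureTheory Metric
open scoped ContDiff

namespace Vale.Agent.P273.H873

open Vale.Agent.P273.H857

noncomputable section

/-- the dominating function of one variable -/
def dom (t : ℝ) : ℝ := (Real.sqrt t)⁻¹ * ((1 + t) * Real.sqrt (1 + t))⁻¹

theorem dom_nonneg {t : ℝ} (ht : 0 ≤ t) : 0 ≤ dom t := by
  unfold dom; positivity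

theorem continuousOn_dom : ContinuousOn dom (Ioi 0) := by
  unfold dom
  intro t ht
  have ht : 0 < t := ht
  refine ContinuousAt.continuousWithinAt ?_
  have h1 : ContinuousAt (fun t : ℝ => Real.sqrt t) t := Real.continuous_sqrt.continuousAt
  have h2 : ContinuousAt (fun t : ℝ => (1 + t) * Real.sqrt (1 + t)) t := by fun_prop
  exact (h1.inv₀ (Real.sqrt_pos.2 ht).ne').mul (h2.inv₀ (by positivity))

theorem integrableOn_dom : IntegrableOn dom (Ioi 0) := by
  have h0 : Ioi (0 : ℝ) = Ioc 0 1 ∪ Ioi 1 := by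
    rw [Ioc_union_Ioi_eq_Ioi zero_le_one]
  rw [h0]
  refine IntegrableOn.union ?_ ?_
  · have h1 : IntegrableOn (fun t : ℝ => t ^ (-(1 / 2) : ℝ)) (Ioc 0 1) := by
      have := intervalIntegral.intervalIntegrable_rpow' (a := 0) (b := 1) (r := -(1 / 2))
        (by norm_num)
      rwa [intervalIntegrable_iff_integrableOn_Ioc_of_le zero_le_one] at this
    refine h1.mono' ((continuousOn_dom.mono fun t ht => ht.1).aestronglyMeasurable
      measurableSet_Ioc) ?_
    refine (ae_restrict_mem measurableSet_Ioc).mono fun t ht => ?_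
    have ht0 : 0 < t := ht.1
    rw [Real.norm_of_nonneg (dom_nonneg ht0.le)]
    unfold dom
    have e : t ^ (-(1 / 2) : ℝ) = (Real.sqrt t)⁻¹ := by
      rw [Real.rpow_neg ht0.le, Real.sqrt_eq_rpow]
    rw [e]
    have h2 : (1 : ℝ) ≤ (1 + t) * Real.sqrt (1 + t) := by
      have h3 : (1 : ℝ) ≤ Real.sqrt (1 + t) := Real.one_le_sqrt.2 (by linarith)
      nlinarith
    have h4 : ((1 + t) * Real.sqrt (1 + t))⁻¹ ≤ 1 := inv_le_one_of_one_le₀ h2
    have h5 : 0 ≤ (Real.sqrt t)⁻¹ := by positivity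
    calc (Real.sqrt t)⁻¹ * ((1 + t) * Real.sqrt (1 + t))⁻¹ ≤ (Real.sqrt t)⁻¹ * 1 := by gcongr
      _ = _ := mul_one _
  · have h1 : IntegrableOn (fun t : ℝ => t ^ (-2 : ℝ)) (Ioi 1) :=
      integrableOn_Ioi_rpow_of_lt (by norm_num) one_pos
    refine h1.mono' ((continuousOn_dom.mono fun t (ht : 1 < t) => zero_lt_one.trans
      ht).aestronglyMeasurable measurableSet_Ioi) ?_
    refine (ae_restrict_mem measurableSet_Ioi).mono fun t ht => ?_
    have ht1 : 1 < t := ht
    have ht0 : 0 < t := by linarith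
    rw [Real.norm_of_nonneg (dom_nonneg ht0.le)]
    unfold dom
    have e : t ^ (-2 : ℝ) = (Real.sqrt t)⁻¹ * (t * Real.sqrt t)⁻¹ := by
      have h2 : Real.sqrt t * Real.sqrt t = t := Real.mul_self_sqrt ht0.le
      have h3 : Real.sqrt t ≠ 0 := (Real.sqrt_pos.2 ht0).ne'
      rw [Real.rpow_neg ht0.le, Real.rpow_two, ← mul_inv]
      congr 1
      calc t ^ 2 = t * (Real.sqrt t * Real.sqrt t) := by rw [h2]; ring
        _ = _ := by ring
    rw [e]
    gcongr <;> linarith

/-- heights grow at most linearly -/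
theorem path_bound {g : ℝ → ℝ} (hg : IsPath g) : ∃ K, 0 ≤ K ∧ (∀ t, |deriv g t| ≤ K) ∧
    ∀ t, 0 ≤ t → |g t| ≤ K * t := by
  obtain ⟨K, hK⟩ := hg.bdd
  have hK0 : 0 ≤ K := (abs_nonneg _).trans (hK 0)
  refine ⟨K, hK0, hK, fun t ht => ?_⟩
  have hd : Differentiable ℝ g := hg.smooth.differentiable (by simp)
  have := (convex_univ (𝕜 := ℝ) (E := ℝ)).norm_image_sub_le_of_norm_deriv_le (f := g) (C := K)
    (fun x _ => hd x) (fun x _ => by rw [Real.norm_eq_abs]; exact hK x) (mem_univ 0) (mem_univ t)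
  rw [hg.zero, sub_zero, sub_zero, Real.norm_eq_abs, Real.norm_eq_abs, abs_of_nonneg ht] at this
  exact this

/-- the integrand is continuous in `t > 0` -/
theorem continuousOn_igd {k : ℕ} {B : Finset (Fin 6)} {b : C6} {x : ℂ} {g : ℝ → ℝ}
    (h : Adm B b x g) : ContinuousOn (igd k B b x g) (Ioi 0) := by
  intro t ht
  have ht0 : 0 < t := ht
  refine ContinuousAt.continuousWithinAt ?_
  have hg : ContinuousAt (gam x g) t := by
    unfold gam
    have h1 : ContinuousAt g t := h.1.smooth.continuous.continuousAt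
    fun_prop
  have hD := h.mem_Dm ht0
  have hs : ContinuousAt (fun z => sq B b z) (gam x g t) := by
    have := (analyticAt_sq hD).continuousAt
    have h2 : ContinuousAt (fun z : ℂ => (b, z)) (gam x g t) := by fun_prop
    have h3 : ContinuousAt ((fun p : C6 × ℂ => sq B p.1 p.2) ∘ fun z : ℂ => (b, z))
        (gam x g t) := ContinuousAt.comp this h2
    simpa only [Function.comp_def] using h3
  have hs' : ContinuousAt (fun t => sq B b (gam x g t)) t := hs.comp hg
  have hne : sq B b (gam x g t) ≠ 0 := sq_ne_zero fun l h0 => by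
    have := Sb_ne_zero (hD l)
    rw [h0, sub_self] at this
    exact this rfl
  have hdg : ContinuousAt (fun t => ((deriv g t : ℝ) : ℂ)) t := by
    have h3 : Continuous (deriv g) := h.1.smooth.continuous_deriv (by simp)
    exact (continuous_ofReal.comp h3).continuousAt
  have h4 : ContinuousAt (fun t => gam x g t ^ k) t := hg.fun_pow k
  have h5 : ContinuousAt (fun t => gam x g t ^ k / sq B b (gam x g t)) t := h4.div hs' hne
  have h6 : ContinuousAt (fun t : ℝ => 1 + ((deriv g t : ℝ) : ℂ) * I) t :=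
    continuousAt_const.add (hdg.mul continuousAt_const)
  exact h5.mul h6

/-- the integrand is holomorphic in the roots -/
theorem differentiableAt_igd {k : ℕ} {B : Finset (Fin 6)} {b : C6} {j : Fin 6} {g : ℝ → ℝ}
    (h : Adm B b (b j) g) {t : ℝ} (ht : 0 < t) :
    DifferentiableAt ℂ (fun b : C6 => igd k B b (b j) g t) b := by
  have hD := h.mem_Dm ht
  have hgam : DifferentiableAt ℂ (fun b : C6 => gam (b j) g t) b := by
    unfold gam
    fun_prop
  have hs : DifferentiableAt ℂ (fun b : C6 => sq B b (gam (b j) g t)) b := by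
    have h1 := (analyticAt_sq hD).differentiableAt
    have h2 : DifferentiableAt ℂ (fun b : C6 => (b, gam (b j) g t)) b :=
      differentiableAt_id.prodMk hgam
    have h3 : DifferentiableAt ℂ ((fun p : C6 × ℂ => sq B p.1 p.2) ∘
        fun b : C6 => (b, gam (b j) g t)) b := DifferentiableAt.comp b h1 h2
    simpa only [Function.comp_def] using h3
  have hne : sq B b (gam (b j) g t) ≠ 0 := sq_ne_zero fun l h0 => by
    have := Sb_ne_zero (hD l)
    rw [h0, sub_self] at this
    exact this rfl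
  have h4 : DifferentiableAt ℂ (fun b : C6 => gam (b j) g t ^ k) b := hgam.fun_pow k
  have h5 : DifferentiableAt ℂ (fun b : C6 => gam (b j) g t ^ k / sq B b (gam (b j) g t)) b := by
    simp only [div_eq_mul_inv]
    exact h4.fun_mul (hs.fun_inv hne)
  exact h5.mul_const (1 + deriv g t * I)

/-- the bound for the integrand -/
theorem norm_igd_le {k : ℕ} {B : Finset (Fin 6)} {b : C6} {j : Fin 6} {g : ℝ → ℝ} {c K M t : ℝ}
    (hk : k ≤ 1) (hc : 0 < c) (hK : 0 ≤ K) (h1 : ∀ t, |deriv g t| ≤ K)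
    (h2 : ∀ t, 0 ≤ t → |g t| ≤ K * t) (hM : ‖b j‖ ≤ M)
    (hlow : ∀ t ≥ (0 : ℝ), ∀ l, l ≠ j → c * (1 + t) ≤ ‖gam (b j) g t - b l‖) (ht : 0 < t) :
    ‖igd k B b (b j) g t‖ ≤
      (M + 1 + K) ^ k * (1 + K) / (c ^ 2 * Real.sqrt c) * dom t := by
  have hM0 : 0 ≤ M := (norm_nonneg _).trans hM
  -- the numerator
  have hgam : ‖gam (b j) g t‖ ≤ (M + 1 + K) * (1 + t) := by
    unfold gam
    have e1 : ‖(t : ℂ) + (g t : ℂ) * I‖ ≤ t + K * t := by
      refine (norm_add_le _ _).trans ?_
      rw [norm_mul, norm_I, mul_one, norm_real, norm_real, Real.norm_eq_abs, Real.norm_eq_abs,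
        abs_of_pos ht]
      have := h2 t ht.le
      linarith
    refine (norm_add_le _ _).trans ?_
    nlinarith [mul_nonneg hM0 ht.le]
  have hpow : ‖gam (b j) g t ^ k‖ ≤ (M + 1 + K) ^ k * (1 + t) := by
    rw [norm_pow]
    interval_cases k
    · simp; linarith
    · simpa using hgam
  have hder : ‖1 + ((deriv g t : ℝ) : ℂ) * I‖ ≤ 1 + K := by
    refine (norm_add_le _ _).trans ?_
    rw [norm_mul, norm_I, mul_one, norm_real, Real.norm_eq_abs, norm_one]
    linarith [h1 t]
  -- the denominator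
  have hden : c ^ 2 * Real.sqrt c * ((1 + t) ^ 2 * Real.sqrt (1 + t)) * Real.sqrt t ≤
      ‖sq B b (gam (b j) g t)‖ := by
    rw [sq_eq j, norm_mul, norm_br, mul_comm]
    have e1 : Real.sqrt t ≤ Real.sqrt ‖gam (b j) g t - b j‖ := by
      refine Real.sqrt_le_sqrt ?_
      have e2 : gam (b j) g t - b j = t + g t * I := by unfold gam; ring
      rw [e2]
      calc t = |((t : ℂ) + g t * I).re| := by simp [abs_of_pos ht]
        _ ≤ _ := abs_re_le_norm _
    have e3 : c ^ 2 * Real.sqrt c * ((1 + t) ^ 2 * Real.sqrt (1 + t)) ≤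
        ‖sqj j B b (gam (b j) g t)‖ := by
      unfold sqj
      rw [norm_prod]
      have e4 : ∏ l ∈ Finset.univ.erase j, Real.sqrt (c * (1 + t)) ≤
          ∏ l ∈ Finset.univ.erase j, ‖br B l (gam (b j) g t - b l)‖ := by
        refine Finset.prod_le_prod (fun _ _ => Real.sqrt_nonneg _) fun l hl => ?_
        rw [norm_br]
        exact Real.sqrt_le_sqrt (hlow t ht.le l (Finset.ne_of_mem_erase hl))
      refine le_trans (le_of_eq ?_) e4
      rw [Finset.prod_const, Finset.card_erase_of_mem (Finset.mem_univ j), Finset.card_univ,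
        Fintype.card_fin]
      have e5 : Real.sqrt (c * (1 + t)) = Real.sqrt c * Real.sqrt (1 + t) :=
        Real.sqrt_mul hc.le _
      have e6 : Real.sqrt c * Real.sqrt c = c := Real.mul_self_sqrt hc.le
      have e7 : Real.sqrt (1 + t) * Real.sqrt (1 + t) = 1 + t := Real.mul_self_sqrt (by linarith)
      rw [e5]
      generalize Real.sqrt c = u at *
      generalize Real.sqrt (1 + t) = v at *
      have e8 : (u * v) ^ (6 - 1) = (u * u) ^ 2 * u * ((v * v) ^ 2 * v) := by
        norm_num; ring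
      rw [e8, e6, e7]
    exact mul_le_mul e1 e3 (by positivity) (Real.sqrt_nonneg _)
  have hpos : 0 < c ^ 2 * Real.sqrt c * ((1 + t) ^ 2 * Real.sqrt (1 + t)) * Real.sqrt t := by
    positivity
  unfold igd
  rw [norm_mul, norm_div]
  calc ‖gam (b j) g t ^ k‖ / ‖sq B b (gam (b j) g t)‖ * ‖1 + ((deriv g t : ℝ) : ℂ) * I‖
      ≤ (M + 1 + K) ^ k * (1 + t) /
          (c ^ 2 * Real.sqrt c * ((1 + t) ^ 2 * Real.sqrt (1 + t)) * Real.sqrt t) * (1 + K) := by
        gcongr
    _ = _ := by
        unfold dom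
        have e1 : Real.sqrt t ≠ 0 := (Real.sqrt_pos.2 ht).ne'
        have e2 : Real.sqrt (1 + t) ≠ 0 := (Real.sqrt_pos.2 (by linarith)).ne'
        have e3 : Real.sqrt c ≠ 0 := (Real.sqrt_pos.2 hc).ne'
        have e4 : (1 + t) ≠ 0 := by positivity
        field_simp

/-- **row GP-HOLR** -/
theorem stmHOLR_of (hEX : StmEX) (hINV : StmINV) (hLOW : StmLOWR) : StmHOLR := by
  intro k B b₀ j hk hinj hOK
  obtain ⟨g, hg⟩ := hEX B b₀ (b₀ j) hOK
  obtain ⟨ε, hε, c, hc, hb⟩ := hLOW B b₀ j g hg fun l hl h => hl (hinj h)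
  obtain ⟨K, hK, hK1, hK2⟩ := path_bound hg.1
  -- the domain
  let U : Set C6 := {b | ‖b - b₀‖ < ε ∧ Function.Injective b}
  have hUo : IsOpen U := by
    have h1 : IsOpen {b : C6 | ‖b - b₀‖ < ε} := isOpen_lt (by fun_prop) continuous_const
    have h2 : IsOpen {b : C6 | Function.Injective b} := by
      have e : {b : C6 | Function.Injective b} = ⋂ i, ⋂ l, {b : C6 | b i = b l → i = l} := by
        ext b
        simp only [Set.mem_ofPred_eq, mem_iInter, Function.Injective]
      rw [e]
      refine isOpen_iInter_of_finite fun i => isOpen_iInter_of_finite fun l => ?_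
      rcases eq_or_ne i l with h | h
      · simp [h]
      · have : {b : C6 | b i = b l → i = l} = {b : C6 | b i ≠ b l} := by
          ext b; simp [h]
        rw [this]
        exact isOpen_ne_fun (continuous_apply i) (continuous_apply l)
    exact h1.inter h2
  have hb₀ : b₀ ∈ U := ⟨by simpa using hε, hinj⟩
  have hAdm : ∀ b ∈ U, Adm B b (b j) g := fun b h => (hb b h.1).1
  -- the integral
  have hdiff : DifferentiableOn ℂ (fun b : C6 => ∫ t in Ioi (0 : ℝ), igd k B b (b j) g t) U := by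
    refine differentiableOn_integral_hol (μ := volume.restrict (Ioi (0 : ℝ)))
      (G := fun b t => igd k B b (b j) g t) hUo ?_ ?_ ?_
    · intro b h
      exact (continuousOn_igd (hAdm b h)).aestronglyMeasurable measurableSet_Ioi
    · refine (ae_restrict_mem measurableSet_Ioi).mono fun t ht b h => ?_
      exact (differentiableAt_igd (hAdm b h) ht).differentiableWithinAt
    · intro b h
      obtain ⟨r, hr, hrU⟩ := Metric.isOpen_iff.1 hUo b h
      refine ⟨r, hr, hrU, fun t => (‖b‖ + r + 1 + K) ^ k * (1 + K) / (c ^ 2 * Real.sqrt c) * dom t,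
        integrableOn_dom.const_mul _, ?_⟩
      refine (ae_restrict_mem measurableSet_Ioi).mono fun t ht q hq => ?_
      have hq' := hrU hq
      refine norm_igd_le hk hc hK hK1 hK2 ?_ (hb q hq'.1).2.2 ht
      have h1 : ‖q j‖ ≤ ‖q‖ := norm_le_pi_norm q j
      have h2 : ‖q‖ ≤ ‖b‖ + r := by
        rw [mem_ball, dist_eq_norm] at hq
        have := norm_le_norm_add_norm_sub b q
        have h3 : ‖b - q‖ = ‖q - b‖ := norm_sub_rev _ _
        linarith
      exact h1.trans h2
  have hana : AnalyticAt ℂ (fun b : C6 => -∫ t in Ioi (0 : ℝ), igd k B b (b j) g t) b₀ :=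
    (Vale.Agent.P268.analyticAt_of_differentiableOn hUo hdiff hb₀).neg
  refine hana.congr ?_
  filter_upwards [hUo.mem_nhds hb₀] with b h
  have hex : ∃ g, Adm B b (b j) g := ⟨g, hAdm b h⟩
  change PG k B b (b j) g = P k B b (b j)
  unfold P
  rw [dif_pos hex]
  exact (hINV k B b (b j) hk h.2).2 _ _ (hAdm b h) hex.choose_spec

end

end Vale.Agent.P273.H873
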